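import Vale.Agent.Lib.P125Main

open Vale.Agent.P125

/-- For a stationary reversible chain and antisymmetric edge vectors of `ℓ₁ⁿ`-norm at most one,
the largest partial sum of the coordinates of the total displacement after `t` steps has first
moment at most `5 t^(8/9)` and third moment at most `103 t^(8/3)`, uniformly in `n`. -/
theorem Vale.Agent.Results.P125.SummationChain.result
    {S : Type*} [Fintype S] (π : S → ℝ) (P : S → S → ℝ)
    (hπ0 : ∀ i, 0 ≤ π i) (hπ1 : ∑ i, π i = 1)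
    (hP0 : ∀ i j, 0 ≤ P i j) (hP1 : ∀ i, ∑ j, P i j = 1)
    (hrev : ∀ i j, π i * P i j = π j * P j i)
    (n : ℕ) (ω : S → S → ℕ → ℝ) (hanti : ∀ i j k, ω j i k = - ω i j k)
    (hnorm : ∀ i j, ∑ k ∈ Finset.range n, |ω i j k| ≤ 1)
    (t : ℕ) (ht : 1 ≤ t) :
    (∑ z : Fin (t + 1) → S, π (z 0) * (∏ s : Fin t, P (z s.castSucc) (z s.succ)) *
        (Finset.range (n + 1)).sup' Finset.nonempty_range_add_one (fun k =>
          |∑ s : Fin t, ∑ j ∈ Finset.range k, ω (z s.castSucc) (z s.succ) j|))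
      ≤ 5 * (t : ℝ) ^ ((8 : ℝ) / 9) ∧
    (∑ z : Fin (t + 1) → S, π (z 0) * (∏ s : Fin t, P (z s.castSucc) (z s.succ)) *
        ((Finset.range (n + 1)).sup' Finset.nonempty_range_add_one (fun k =>
          |∑ s : Fin t, ∑ j ∈ Finset.range k, ω (z s.castSucc) (z s.succ) j|)) ^ 3)
      ≤ 103 * (t : ℝ) ^ ((8 : ℝ) / 3) := by
  have hc : RevChain π P := ⟨hπ0, hπ1, hP0, hP1, hrev⟩
  exact ⟨Et_Ym_final hc ω hanti n hnorm t ht, Et_Ym_cube_final hc ω hanti n hnorm t ht⟩
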